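import Vale.Agent.Lib.P034.Cluster

/-!
# P034: a constant-factor rounding theorem for fractional covers with locally sparse support

If a fractional cover `g` of a family `F` has cost at most `1/2` at `p` and is positive only on
the empty set and on members of a family `R` of nonempty sets which is closed under unions of
intersecting members and in which every point lies in at most `b ^ r` members of size `r`,
then `F` is `p / (2 ^ 32 * b)`-small.  There is no bound on the sizes of the sets in `R` and
the weights are arbitrary.
-/

namespace Vale.Agent.Results.P034.ClusterRounding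

open Vale.Agent.Lib.P034

theorem result {X : Type*} [Fintype X] [DecidableEq X]
    (F : Set (Finset X)) (R : Finset (Finset X)) (b : ℕ) (hb : 1 ≤ b)
    (hne : ∅ ∉ R) (hU : ClosedUnderIntersectingUnions R) (hG : LocallySparse R b)
    (p : ℝ) (hp0 : 0 ≤ p) (hp1 : p ≤ 1) (g : Finset X → ℝ) (hg : IsFracCover g F)
    (hsupp : SupportedOn g R) (hcost : fcost g p ≤ 1 / 2) :
    IsSmall F (p / (2 ^ 32 * b)) :=
  small_of_fracCover_supportedOn F R b hb hne hU hG p hp0 hp1 g hg hsupp hcost

end Vale.Agent.Results.P034.ClusterRounding
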