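import Vale.Agent.Results.P034.BoundedDegree
import Vale.Agent.Results.P034.ClusterRounding

/-!
# P034: two rounding theorems for fractional covers, in one statement

(1) supports of bounded degree; (2) locally sparse supports closed under unions of intersecting
members.  In both parts the sizes of the support sets and the weights are arbitrary.
-/

namespace Vale.Agent.Results.P034.A_Combined

open Vale.Agent.Lib.P034

universe u

theorem result :
    (∀ (X : Type u) [Fintype X] [DecidableEq X]
      (F : Set (Finset X)) (D : ℕ) (_hD1 : 1 ≤ D)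
      (p : ℝ) (_hp0 : 0 ≤ p) (g : Finset X → ℝ) (_hg : IsFracCover g F)
      (_hD : ∀ x : X, ((Finset.univ : Finset (Finset X)).filter
        (fun S => g S ≠ 0 ∧ x ∈ S)).card ≤ D)
      (_hcost : fcost g p ≤ 1 / 2),
      IsSmall F (min p (1 / D) / 2 ^ 34)) ∧
    (∀ (X : Type u) [Fintype X] [DecidableEq X]
      (F : Set (Finset X)) (R : Finset (Finset X)) (b : ℕ) (_hb : 1 ≤ b)
      (_hne : ∅ ∉ R) (_hU : ClosedUnderIntersectingUnions R) (_hG : LocallySparse R b)
      (p : ℝ) (_hp0 : 0 ≤ p) (_hp1 : p ≤ 1) (g : Finset X → ℝ) (_hg : IsFracCover g F)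
      (_hsupp : SupportedOn g R) (_hcost : fcost g p ≤ 1 / 2),
      IsSmall F (p / (2 ^ 32 * b))) :=
  ⟨fun _ _ _ F D hD1 p hp0 g hg hD hcost =>
      Vale.Agent.Results.P034.BoundedDegree.result F D hD1 p hp0 g hg hD hcost,
   fun _ _ _ F R b hb hne hU hG p hp0 hp1 g hg hsupp hcost =>
      Vale.Agent.Results.P034.ClusterRounding.result F R b hb hne hU hG p hp0 hp1 g hg hsupp hcost⟩

end Vale.Agent.Results.P034.A_Combined
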