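import Vale.Agent.Lib.P034.Degree

/-!
# P034: rounding fractional covers whose support has bounded degree

If a fractional cover `g` of `F` has cost at most `1/2` at `p` and every point of the ground set
lies in at most `D` sets `S` with `g S ≠ 0`, then `F` is `min p (1/D) / 2 ^ 34`-small.
In particular the loss is an absolute constant as soon as `D * p ≤ 1`, and at most `2 ^ 34 * D`
in general.  The sizes of the support sets and the weights are arbitrary.
-/

namespace Vale.Agent.Results.P034.BoundedDegree

open Vale.Agent.Lib.P034

theorem result {X : Type*} [Fintype X] [DecidableEq X]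
    (F : Set (Finset X)) (D : ℕ) (hD1 : 1 ≤ D)
    (p : ℝ) (hp0 : 0 ≤ p) (g : Finset X → ℝ) (hg : IsFracCover g F)
    (hD : ∀ x : X, ((Finset.univ : Finset (Finset X)).filter
      (fun S => g S ≠ 0 ∧ x ∈ S)).card ≤ D)
    (hcost : fcost g p ≤ 1 / 2) :
    IsSmall F (min p (1 / D) / 2 ^ 34) :=
  small_of_bounded_degree F D hD1 p hp0 g hg hD hcost

end Vale.Agent.Results.P034.BoundedDegree
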